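import Mathlib

/-!
# Averaging operators over the classes of an equivalence relation on a finite type

Interface-free helper module for the bipartite switch-chain argument (P335).
For a relation `r` on a finite type `Ω`, `avg r f x` is the mean of `f` over the class
`{y | r x y}` of `x`.  When `r` is an equivalence relation this is the orthogonal
projection (for the counting inner product `∑ x, f x * g x`) onto the `r`-invariant
functions.
-/

namespace Vale.Agent.Lib.P335.H14

open Finset

variable {Ω : Type*} [Fintype Ω]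

/-- The class of `x`: all `y` with `r x y`. -/
def cls (r : Ω → Ω → Prop) [DecidableRel r] (x : Ω) : Finset Ω := univ.filter (r x)

/-- The averaging operator of the relation `r`. -/
noncomputable def avg (r : Ω → Ω → Prop) [DecidableRel r] (f : Ω → ℝ) : Ω → ℝ :=
  fun x => (∑ y ∈ cls r x, f y) / ((cls r x).card : ℝ)

section basic

variable {r : Ω → Ω → Prop} [DecidableRel r]

theorem mem_cls {x y : Ω} : y ∈ cls r x ↔ r x y := by
  simp [cls]

theorem sum_cls (F : Ω → ℝ) (x : Ω) :
    ∑ y ∈ cls r x, F y = ∑ y, if r x y then F y else 0 := by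
  rw [cls, sum_filter]

theorem self_mem_cls (hr : Equivalence r) (x : Ω) : x ∈ cls r x :=
  mem_cls.2 (hr.refl x)

theorem cls_card_pos (hr : Equivalence r) (x : Ω) : 0 < (cls r x).card :=
  card_pos.2 ⟨x, self_mem_cls hr x⟩

theorem cls_card_pos' (hr : Equivalence r) (x : Ω) : (0 : ℝ) < ((cls r x).card : ℝ) := by
  exact_mod_cast cls_card_pos hr x

theorem cls_eq_of_rel (hr : Equivalence r) {x y : Ω} (h : r x y) : cls r x = cls r y := by
  ext z
  simp only [mem_cls]
  exact ⟨fun hz => hr.trans (hr.symm h) hz, fun hz => hr.trans h hz⟩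

theorem avg_apply (f : Ω → ℝ) (x : Ω) :
    avg r f x = (∑ y ∈ cls r x, f y) / ((cls r x).card : ℝ) := rfl

theorem avg_rel (hr : Equivalence r) (f : Ω → ℝ) {x y : Ω} (h : r x y) :
    avg r f x = avg r f y := by
  simp only [avg_apply, cls_eq_of_rel hr h]

theorem avg_add (f g : Ω → ℝ) : avg r (f + g) = avg r f + avg r g := by
  funext x
  simp only [avg_apply, Pi.add_apply, sum_add_distrib, add_div]

theorem avg_smul (c : ℝ) (f : Ω → ℝ) : avg r (c • f) = c • avg r f := by
  funext x
  simp only [avg_apply, Pi.smul_apply, smul_eq_mul, ← mul_sum, mul_div_assoc]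

theorem avg_sub (f g : Ω → ℝ) : avg r (f - g) = avg r f - avg r g := by
  funext x
  simp only [avg_apply, Pi.sub_apply, sum_sub_distrib, sub_div]

theorem avg_neg (f : Ω → ℝ) : avg r (-f) = -avg r f := by
  funext x
  simp only [avg_apply, Pi.neg_apply, sum_neg_distrib, neg_div]

theorem avg_zero : avg r (0 : Ω → ℝ) = 0 := by
  funext x
  simp [avg_apply]

/-- `avg r` as a linear map. -/
noncomputable def avgL (r : Ω → Ω → Prop) [DecidableRel r] : (Ω → ℝ) →ₗ[ℝ] (Ω → ℝ) where
  toFun := avg r
  map_add' := avg_add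
  map_smul' := by
    intro c f
    simpa using avg_smul (r := r) c f

@[simp] theorem avgL_apply (f : Ω → ℝ) : avgL r f = avg r f := rfl

/-- An `r`-invariant function is fixed by `avg r`. -/
theorem avg_of_invariant (hr : Equivalence r) {f : Ω → ℝ} (hf : ∀ x y, r x y → f x = f y) :
    avg r f = f := by
  funext x
  rw [avg_apply]
  have h1 : ∑ y ∈ cls r x, f y = ∑ _y ∈ cls r x, f x :=
    sum_congr rfl fun y hy => (hf x y (mem_cls.1 hy)).symm
  rw [h1, sum_const, nsmul_eq_mul]
  field_simp [(cls_card_pos' hr x).ne']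

/-- Multiplication by an `r`-invariant function commutes with `avg r`. -/
theorem avg_mul_of_invariant {φ : Ω → ℝ} (hφ : ∀ x y, r x y → φ x = φ y) (g : Ω → ℝ) :
    avg r (fun x => φ x * g x) = fun x => φ x * avg r g x := by
  funext x
  rw [avg_apply, avg_apply]
  have : ∑ y ∈ cls r x, φ y * g y = φ x * ∑ y ∈ cls r x, g y := by
    rw [mul_sum]
    exact sum_congr rfl fun y hy => by rw [hφ x y (mem_cls.1 hy)]
  rw [this, mul_div_assoc]

theorem avg_const (hr : Equivalence r) (c : ℝ) : avg r (fun _ : Ω => c) = fun _ => c :=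
  avg_of_invariant hr fun _ _ _ => rfl

theorem avg_idem (hr : Equivalence r) (f : Ω → ℝ) : avg r (avg r f) = avg r f :=
  avg_of_invariant hr fun _ _ h => avg_rel hr f h

/-- `avg r` is symmetric for the counting inner product. -/
theorem avg_symm (hr : Equivalence r) (f g : Ω → ℝ) :
    ∑ x, g x * avg r f x = ∑ x, avg r g x * f x := by
  have h1 : ∀ x, g x * avg r f x
      = ∑ y, if r x y then g x * f y / ((cls r x).card : ℝ) else 0 := by
    intro x
    rw [avg_apply, mul_div_assoc', mul_sum, sum_div, sum_cls]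
  have h2 : ∀ y, avg r g y * f y
      = ∑ x, if r x y then g x * f y / ((cls r x).card : ℝ) else 0 := by
    intro y
    rw [avg_apply, div_mul_eq_mul_div, sum_mul, sum_div, sum_cls]
    refine sum_congr rfl fun x _ => ?_
    by_cases h : r y x
    · have h' : r x y := hr.symm h
      rw [if_pos h, if_pos h', cls_eq_of_rel hr h']
    · have h' : ¬ r x y := fun h' => h (hr.symm h')
      rw [if_neg h, if_neg h']
  calc ∑ x, g x * avg r f x
      = ∑ x, ∑ y, if r x y then g x * f y / ((cls r x).card : ℝ) else 0 :=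
        sum_congr rfl fun x _ => h1 x
    _ = ∑ y, ∑ x, if r x y then g x * f y / ((cls r x).card : ℝ) else 0 := sum_comm
    _ = ∑ y, avg r g y * f y := sum_congr rfl fun y _ => (h2 y).symm

theorem sum_avg (hr : Equivalence r) (f : Ω → ℝ) : ∑ x, avg r f x = ∑ x, f x := by
  have h := avg_symm hr f (fun _ => (1 : ℝ))
  rw [avg_const hr] at h
  simpa using h

/-- `⟨avg f, avg f⟩ = ⟨f, avg f⟩`. -/
theorem sum_avg_sq (hr : Equivalence r) (f : Ω → ℝ) :
    ∑ x, avg r f x ^ 2 = ∑ x, f x * avg r f x := by
  have h := avg_symm hr (avg r f) f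
  rw [avg_idem hr] at h
  rw [h]
  refine sum_congr rfl fun x _ => ?_
  ring

/-- Pythagoras: `‖f - avg f‖² = ⟨f, f - avg f⟩ = ‖f‖² - ‖avg f‖²`. -/
theorem sum_sub_avg_sq (hr : Equivalence r) (f : Ω → ℝ) :
    ∑ x, (f x - avg r f x) ^ 2 = ∑ x, f x * (f x - avg r f x) := by
  have h := sum_avg_sq hr f
  have e1 : ∑ x, (f x - avg r f x) ^ 2
      = ∑ x, f x * (f x - avg r f x) - (∑ x, f x * avg r f x - ∑ x, avg r f x ^ 2) := by
    rw [← sum_sub_distrib, ← sum_sub_distrib]
    refine sum_congr rfl fun x _ => ?_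
    ring
  rw [e1, h]
  ring

theorem sum_sub_avg_sq' (hr : Equivalence r) (f : Ω → ℝ) :
    ∑ x, (f x - avg r f x) ^ 2 = ∑ x, f x ^ 2 - ∑ x, avg r f x ^ 2 := by
  rw [sum_sub_avg_sq hr, sum_avg_sq hr, ← sum_sub_distrib]
  refine sum_congr rfl fun x _ => ?_
  ring

theorem sum_avg_sq_le (hr : Equivalence r) (f : Ω → ℝ) :
    ∑ x, avg r f x ^ 2 ≤ ∑ x, f x ^ 2 := by
  have h := sum_sub_avg_sq' hr f
  have h0 : 0 ≤ ∑ x, (f x - avg r f x) ^ 2 := sum_nonneg fun x _ => sq_nonneg _
  linarith

end basic

section coarser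

variable {r r' : Ω → Ω → Prop} [DecidableRel r] [DecidableRel r']

/-- If `r` is finer than `r'`, then `avg r (avg r' f) = avg r' f`. -/
theorem avg_avg_of_le (hr : Equivalence r) (hr' : Equivalence r')
    (hle : ∀ x y, r x y → r' x y) (f : Ω → ℝ) : avg r (avg r' f) = avg r' f :=
  avg_of_invariant hr fun _ _ h => avg_rel hr' f (hle _ _ h)

/-- If `r` is finer than `r'`, then `avg r' (avg r f) = avg r' f`. -/
theorem avg_avg_of_le' (hr : Equivalence r) (hr' : Equivalence r')
    (hle : ∀ x y, r x y → r' x y) (f : Ω → ℝ) : avg r' (avg r f) = avg r' f := by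
  classical
  funext x
  rw [avg_apply, avg_apply]
  congr 1
  -- indicator of the `r'`-class of `x`
  set g : Ω → ℝ := fun y => if r' x y then 1 else 0 with hg
  have hginv : ∀ y z, r y z → g y = g z := by
    intro y z hyz
    simp only [hg]
    have : r' x y ↔ r' x z :=
      ⟨fun h => hr'.trans h (hle _ _ hyz), fun h => hr'.trans h (hr'.symm (hle _ _ hyz))⟩
    simp only [this]
  have h1 : ∑ y ∈ cls r' x, avg r f y = ∑ y, g y * avg r f y := by
    rw [cls, sum_filter]
    refine sum_congr rfl fun y _ => ?_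
    simp only [hg]
    split_ifs <;> simp
  have h2 : ∑ y ∈ cls r' x, f y = ∑ y, g y * f y := by
    rw [cls, sum_filter]
    refine sum_congr rfl fun y _ => ?_
    simp only [hg]
    split_ifs <;> simp
  rw [h1, h2, avg_symm hr f g, avg_of_invariant hr hginv]

end coarser

section variance

variable {r : Ω → Ω → Prop} [DecidableRel r]

/-- The variance identity: the squared distance of `f` to `avg r f` equals the sum over the
ordered pairs in a common class of the squared differences, divided by twice the class size. -/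
theorem sum_sub_avg_sq_eq_pairs (hr : Equivalence r) (f : Ω → ℝ) :
    ∑ x, (f x - avg r f x) ^ 2
      = ∑ x, (∑ y ∈ cls r x, (f x - f y) ^ 2) / (2 * ((cls r x).card : ℝ)) := by
  -- expand the right-hand side
  have hx : ∀ x, (∑ y ∈ cls r x, (f x - f y) ^ 2) / (2 * ((cls r x).card : ℝ))
      = f x ^ 2 / 2 - f x * avg r f x + avg r (fun y => f y ^ 2) x / 2 := by
    intro x
    have hc := (cls_card_pos' hr x).ne'
    rw [avg_apply, avg_apply]
    have e : ∑ y ∈ cls r x, (f x - f y) ^ 2
        = ((cls r x).card : ℝ) * f x ^ 2 - 2 * f x * ∑ y ∈ cls r x, f y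
          + ∑ y ∈ cls r x, f y ^ 2 := by
      have : ∀ y ∈ cls r x, (f x - f y) ^ 2 = f x ^ 2 - 2 * f x * f y + f y ^ 2 := by
        intro y _
        ring
      rw [sum_congr rfl this, sum_add_distrib, sum_sub_distrib, sum_const, nsmul_eq_mul,
        ← mul_sum]
    rw [e]
    field_simp
  rw [sum_congr rfl fun x _ => hx x, sum_add_distrib, sum_sub_distrib, ← sum_div, ← sum_div,
    sum_avg hr, sum_sub_avg_sq hr]
  have : ∀ x ∈ (univ : Finset Ω), f x * (f x - avg r f x) = f x ^ 2 - f x * avg r f x := by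
    intro x _
    ring
  rw [sum_congr rfl this, sum_sub_distrib]
  ring

end variance

section commute

variable {r r' : Ω → Ω → Prop} [DecidableRel r] [DecidableRel r']

omit [DecidableRel r] in
/-- Class sizes of `r'` are constant along `r`-classes when the two relations have trivial
intersection and their compositions agree. -/
theorem cls_card_eq_of_commute (hr : Equivalence r) (hr' : Equivalence r')
    (hinter : ∀ x y, r x y → r' x y → x = y)
    (hcomp : ∀ x y z, r x y → r' y z → ∃ w, r' x w ∧ r w z)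
    {x y : Ω} (hxy : r x y) : (cls r' y).card = (cls r' x).card := by
  classical
  -- the map `z ↦ w` with `r' x w ∧ r w z`
  have hex : ∀ z ∈ cls r' y, ∃ w, r' x w ∧ r w z := fun z hz =>
    hcomp x y z hxy (mem_cls.1 hz)
  have hex' : ∀ w ∈ cls r' x, ∃ z, r' y z ∧ r z w := fun w hw =>
    hcomp y x w (hr.symm hxy) (mem_cls.1 hw)
  refine card_bij' (fun z hz => Classical.choose (hex z hz))
    (fun w hw => Classical.choose (hex' w hw)) ?_ ?_ ?_ ?_
  · intro z hz
    exact mem_cls.2 (Classical.choose_spec (hex z hz)).1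
  · intro w hw
    exact mem_cls.2 (Classical.choose_spec (hex' w hw)).1
  · intro z hz
    have h1 := Classical.choose_spec (hex z hz)
    set w := Classical.choose (hex z hz) with hw
    have hwm : w ∈ cls r' x := mem_cls.2 h1.1
    have h2 := Classical.choose_spec (hex' w hwm)
    set z' := Classical.choose (hex' w hwm) with hz'
    -- `r' y z'`, `r z' w`, `r w z`, `r' y z`
    exact hinter z' z (hr.trans h2.2 h1.2) (hr'.trans (hr'.symm h2.1) (mem_cls.1 hz))
  · intro w hw
    have h1 := Classical.choose_spec (hex' w hw)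
    set z := Classical.choose (hex' w hw) with hz
    have hzm : z ∈ cls r' y := mem_cls.2 h1.1
    have h2 := Classical.choose_spec (hex z hzm)
    set w' := Classical.choose (hex z hzm) with hw'
    exact hinter w' w (hr.trans h2.2 h1.2) (hr'.trans (hr'.symm h2.1) (mem_cls.1 hw))

/-- The double sum over `r` then `r'` as a single sum. -/
theorem sum_cls_sum_cls (hr : Equivalence r) (hr' : Equivalence r')
    (hinter : ∀ x y, r x y → r' x y → x = y) (f : Ω → ℝ) (x : Ω) :
    ∑ y ∈ cls r x, ∑ z ∈ cls r' y, f z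
      = ∑ z, if ∃ y, r x y ∧ r' y z then f z else 0 := by
  classical
  have h1 : ∑ y ∈ cls r x, ∑ z ∈ cls r' y, f z
      = ∑ z, ∑ y, if r x y ∧ r' y z then f z else 0 := by
    rw [cls, sum_filter, sum_comm]
    refine sum_congr rfl fun y _ => ?_
    by_cases h : r x y
    · rw [if_pos h, cls, sum_filter]
      refine sum_congr rfl fun z _ => ?_
      simp [h]
    · rw [if_neg h]
      simp [h]
  rw [h1]
  refine sum_congr rfl fun z _ => ?_
  by_cases h : ∃ y, r x y ∧ r' y z
  · rw [if_pos h]
    obtain ⟨y0, hy0⟩ := h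
    rw [sum_eq_single y0]
    · rw [if_pos hy0]
    · intro y _ hne
      rw [if_neg]
      intro hy
      exact hne (hinter y y0 (hr.trans (hr.symm hy.1) hy0.1) (hr'.trans hy.2 (hr'.symm hy0.2)))
    · intro h
      exact absurd (mem_univ y0) h
  · rw [if_neg h]
    refine sum_eq_zero fun y _ => ?_
    rw [if_neg]
    intro hy
    exact h ⟨y, hy⟩

/-- **Commutation of averaging operators.** If two equivalence relations meet trivially and
their compositions agree, their averaging operators commute. -/
theorem avg_comm (hr : Equivalence r) (hr' : Equivalence r')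
    (hinter : ∀ x y, r x y → r' x y → x = y)
    (hcomp : ∀ x y z, r x y → r' y z → ∃ w, r' x w ∧ r w z) (f : Ω → ℝ) :
    avg r (avg r' f) = avg r' (avg r f) := by
  classical
  have hinter' : ∀ x y, r' x y → r x y → x = y := fun x y h h' => hinter x y h' h
  have hcomp' : ∀ x y z, r' x y → r y z → ∃ w, r x w ∧ r' w z := by
    intro x y z hxy hyz
    obtain ⟨w, hw1, hw2⟩ := hcomp z y x (hr.symm hyz) (hr'.symm hxy)
    exact ⟨w, hr.symm hw2, hr'.symm hw1⟩
  funext x
  have e1 : avg r (avg r' f) x
      = (∑ y ∈ cls r x, ∑ z ∈ cls r' y, f z)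
        / (((cls r x).card : ℝ) * ((cls r' x).card : ℝ)) := by
    rw [avg_apply]
    have : ∀ y ∈ cls r x, avg r' f y = (∑ z ∈ cls r' y, f z) / ((cls r' x).card : ℝ) := by
      intro y hy
      rw [avg_apply, cls_card_eq_of_commute hr hr' hinter hcomp (mem_cls.1 hy)]
    rw [sum_congr rfl this, ← sum_div, div_div, mul_comm]
  have e2 : avg r' (avg r f) x
      = (∑ y ∈ cls r' x, ∑ z ∈ cls r y, f z)
        / (((cls r x).card : ℝ) * ((cls r' x).card : ℝ)) := by
    rw [avg_apply]
    have : ∀ y ∈ cls r' x, avg r f y = (∑ z ∈ cls r y, f z) / ((cls r x).card : ℝ) := by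
      intro y hy
      rw [avg_apply, cls_card_eq_of_commute hr' hr hinter' hcomp' (mem_cls.1 hy)]
    rw [sum_congr rfl this, ← sum_div, div_div]
  rw [e1, e2, sum_cls_sum_cls hr hr' hinter, sum_cls_sum_cls hr' hr hinter']
  congr 1
  refine sum_congr rfl fun z _ => ?_
  have : (∃ y, r x y ∧ r' y z) ↔ (∃ y, r' x y ∧ r y z) :=
    ⟨fun ⟨y, h1, h2⟩ => hcomp x y z h1 h2, fun ⟨y, h1, h2⟩ => hcomp' x y z h1 h2⟩
  simp only [this]

end commute

end Vale.Agent.Lib.P335.H14
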